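import Vale.Agent.P080h22.Holder

namespace Vale.Agent.Results.P080.ASeparableHolder

open Vale.Agent.P080h22

/-- In every dimension, an infinity-harmonic function on an open set that is separated in the
coordinates, `u x = ∑ i, f i (x i)`, is continuously differentiable and its gradient is locally
Hoelder continuous with exponent 1/3 (the bound is written in cubed form). -/
theorem result {d : ℕ} (Ω : Set (E d)) (hΩ : IsOpen Ω) (u : E d → ℝ)
    (hu : IsInfinityHarmonic Ω u) (f : Fin d → ℝ → ℝ) (hsep : ∀ x ∈ Ω, u x = ∑ i, f i (x i)) :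
    ContDiffOn ℝ 1 u Ω ∧
      ∀ z ∈ Ω, ∃ ρ > 0, ∃ C : ℝ, 0 ≤ C ∧ ∀ x ∈ Metric.ball z ρ, ∀ y ∈ Metric.ball z ρ,
        ‖fderiv ℝ u x - fderiv ℝ u y‖ ^ 3 ≤ C * ‖x - y‖ :=
  ⟨main hΩ hu hsep, fun _ hz => holder hΩ hu hsep hz⟩

end Vale.Agent.Results.P080.ASeparableHolder
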