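import Vale.Agent.P080h22.Main

namespace Vale.Agent.Results.P080.SeparableC1

open Vale.Agent.P080h22

/-- In every dimension, an infinity-harmonic function on an open set that is separated in the
coordinates, `u x = ∑ i, f i (x i)`, is continuously differentiable. -/
theorem result {d : ℕ} (Ω : Set (E d)) (hΩ : IsOpen Ω) (u : E d → ℝ)
    (hu : IsInfinityHarmonic Ω u) (f : Fin d → ℝ → ℝ) (hsep : ∀ x ∈ Ω, u x = ∑ i, f i (x i)) :
    ContDiffOn ℝ 1 u Ω :=
  main hΩ hu hsep

end Vale.Agent.Results.P080.SeparableC1
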